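import Vale.Agent.P062.Mask

/-! The certificate checker and its soundness. -/

namespace Vale.Agent.P062

def app (b : Bool) (f : ℕ → ℕ) (s : ℕ) : ℕ := cond b (f s) s

def gx (g : ℕ) : Bool := Nat.beq (Nat.land g 1) 1
def gy (g : ℕ) : Bool := Nat.beq (Nat.land g 2) 2
def gt (g : ℕ) : Bool := Nat.beq (Nat.land g 4) 4

/-- apply the symmetry number `g` to a mask -/
def gop (g s : ℕ) : ℕ := app (gt g) transp (app (gy g) flipY (app (gx g) flipX s))

/-- the same on indices -/
def pidx (g i : ℕ) : ℕ := app (gt g) ft (app (gy g) fy (app (gx g) fx i))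

/-- apply the symmetry number `g`, then shift -/
def place (g sh s : ℕ) : ℕ := Nat.shiftLeft (gop g s) sh

noncomputable def symG (g : ℕ) : Sym :=
  ((cond (gx g) symX symId).comp (cond (gy g) symY symId)).comp (cond (gt g) symT symId)

noncomputable def symP (g sh : ℕ) : Sym :=
  (symG g).comp (symTr ((((sh + 16) % 32 : ℕ) : ℤ) - 16, (((sh + 16) / 32 : ℕ) : ℤ)))

theorem symX_pt {i : ℕ} (h : VI i) : symX.e (pt i) = pt (fx i) := by
  unfold VI at h
  simp only [symX, pt, fx, Equiv.coe_fn_mk, Prod.mk.injEq]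
  constructor <;> omega

theorem symY_pt {i : ℕ} (h : VI i) : symY.e (pt i) = pt (fy i) := by
  unfold VI at h
  simp only [symY, pt, fy, Equiv.coe_fn_mk, Prod.mk.injEq]
  constructor <;> omega

theorem symT_pt {i : ℕ} (h : VI i) : symT.e (pt i) = pt (ft i) := by
  unfold VI at h
  have h1 : (i / 32 + 32 * (i % 32)) % 32 = i / 32 := by
    rw [Nat.add_mul_mod_self_left, Nat.mod_eq_of_lt (by omega)]
  simp only [symT, pt, ft, Equiv.coe_fn_mk, Prod.mk.injEq]
  constructor <;> omega

theorem app_spec (b : Bool) (f F : ℕ → ℕ) (T : Sym)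
    (hf : ∀ {s i : ℕ}, VI i → s.testBit i = true → (f s).testBit (F i) = true)
    (hV : ∀ {i : ℕ}, VI i → VI (F i)) (hT : ∀ {i : ℕ}, VI i → T.e (pt i) = pt (F i))
    {s i : ℕ} (hi : VI i) (h : s.testBit i = true) :
    (app b f s).testBit (app b F i) = true ∧ VI (app b F i) ∧
      (cond b T symId).e (pt i) = pt (app b F i) := by
  cases b
  · exact ⟨h, hi, rfl⟩
  · exact ⟨hf hi h, hV hi, hT hi⟩

theorem gop_spec (g : ℕ) {s i : ℕ} (hi : VI i) (h : s.testBit i = true) :
    (gop g s).testBit (pidx g i) = true ∧ VI (pidx g i) ∧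
      (symG g).e (pt i) = pt (pidx g i) := by
  obtain ⟨a1, a2, a3⟩ := app_spec (gx g) flipX fx symX flipX_bit VI_fx symX_pt hi h
  obtain ⟨b1, b2, b3⟩ := app_spec (gy g) flipY fy symY flipY_bit VI_fy symY_pt a2 a1
  obtain ⟨c1, c2, c3⟩ := app_spec (gt g) transp ft symT transp_bit VI_ft symT_pt b2 b1
  refine ⟨c1, c2, ?_⟩
  change (cond (gt g) symT symId).e ((cond (gy g) symY symId).e
    ((cond (gx g) symX symId).e (pt i))) = _
  rw [a3, b3, c3]
  rfl

theorem place_spec (g sh : ℕ) {s i : ℕ} (hi : VI i) (h : s.testBit i = true) :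
    (place g sh s).testBit (pidx g i + sh) = true ∧
      ((pidx g i + sh) % 32 < 16 → (symP g sh).e (pt i) = pt (pidx g i + sh)) := by
  obtain ⟨h1, h2, h3⟩ := gop_spec g hi h
  constructor
  · change ((gop g s) <<< sh).testBit _ = true
    rw [Nat.testBit_shiftLeft]
    simp [h1]
  · intro hk
    change (symG g).e (pt i) +
      (((((sh + 16) % 32 : ℕ) : ℤ) - 16, (((sh + 16) / 32 : ℕ) : ℤ)) : Cell) = _
    rw [h3]
    unfold VI at h2
    generalize pidx g i = j at *
    simp only [pt, Prod.mk_add_mk, Prod.mk.injEq]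
    constructor <;> omega

/-- Certificate trees: a leaf is a numbered fact with masks `c`, `z` and packed references;
an inner node carries a pivot for look-up. -/
inductive Tree where
  | leaf (id c z : ℕ) (refs : List ℕ)
  | node (p : ℕ) (l r : Tree)

/-- look-up of fact number `j`: number and masks -/
noncomputable def Tree.get (t : Tree) : ℕ → ℕ × ℕ × ℕ :=
  Tree.rec (motive := fun _ => ℕ → ℕ × ℕ × ℕ) (fun id c z _ _ => (id, c, z))
    (fun p _ _ fl fr j => cond (Nat.ble p j) (fr j) (fl j)) t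

/-- there is a leaf with these data -/
def Tree.Mem (id c z : ℕ) : Tree → Prop
  | leaf id' c' z' _ => id = id' ∧ c = c' ∧ z = z'
  | node _ l r => l.Mem id c z ∨ r.Mem id c z

theorem Tree.get_mem (t : Tree) (j : ℕ) :
    t.Mem (t.get j).1 (t.get j).2.1 (t.get j).2.2 := by
  induction t with
  | leaf id c z refs => exact ⟨rfl, rfl, rfl⟩
  | node p l r ihl ihr =>
    change (Tree.Mem _ _ _ l) ∨ (Tree.Mem _ _ _ r)
    have : (node p l r).get j = cond (Nat.ble p j) (r.get j) (l.get j) := rfl
    rw [this]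
    cases Nat.ble p j
    · exact Or.inl ihl
    · exact Or.inr ihr

/-- one reference: `e` the earlier fact, `id` the number of the fact to be proved, `C`, `U` its
masks (`C` and `C ∪ Z`, raised by 16 rows), `g`, `sh` the placement, `mb` the Maker move as a
one-bit mask, `k` the check of the rest -/
def checkRef (e : ℕ × ℕ × ℕ) (id C U g sh mb : ℕ) (k : ℕ → Bool) (acc : ℕ) : Bool :=
  and (Nat.ble (Nat.succ e.1) id)
    (and (sub (place g sh e.2.1) (Nat.lor C mb))
      (and (sub (Nat.lor (place g sh e.2.2) mb) U)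
        (k (Nat.land acc (Nat.lor (place g sh e.2.2) mb)))))

noncomputable def checkRefs (T : Tree) (id C U : ℕ) (l : List ℕ) : ℕ → Bool :=
  List.rec (motive := fun _ => ℕ → Bool) (fun acc => sub acc C)
    (fun r _ k acc => checkRef (T.get (Nat.land r 16383)) id C U
      (Nat.land (Nat.shiftRight r 14) 7) (Nat.land (Nat.shiftRight r 17) 1023)
      (Nat.shiftLeft 1 (Nat.shiftRight r 27)) k acc) l

noncomputable def checkLeaf (T : Tree) (id c z : ℕ) (refs : List ℕ) : Bool :=
  and (sub (Nat.lor c z) VALID)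
    (List.rec (motive := fun _ => Bool) (Nat.beq c snakyMask)
      (fun _ _ _ => checkRefs T id (Nat.shiftLeft c 512) (Nat.shiftLeft (Nat.lor c z) 512) refs
        (Nat.shiftLeft (Nat.lor c z) 512)) refs)

/-- all leaves of the second tree are correct with respect to the first tree -/
noncomputable def checkTree (T : Tree) (t : Tree) : Bool :=
  Tree.rec (motive := fun _ => Bool) (fun id c z refs => checkLeaf T id c z refs)
    (fun _ _ _ a b => and a b) t

theorem checkTree_node {T : Tree} {p : ℕ} {l r : Tree} (hl : checkTree T l = true)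
    (hr : checkTree T r = true) : checkTree T (Tree.node p l r) = true := by
  change and (checkTree T l) (checkTree T r) = true
  rw [hl, hr]
  rfl

/-- what a leaf with masks `c`, `z` says -/
def Fact (c z : ℕ) : Prop :=
  (∀ i, (Nat.lor c z).testBit i = true → VI i) ∧ FactS (S c) (S z)

theorem FactS.mono {C Z C' Z' : Set Cell} (h : FactS C Z) (hC : ∀ c ∈ C, c ∈ C')
    (hZ : ∀ z ∈ Z, z ∈ Z') : FactS C' Z' := by
  obtain ⟨n, hn⟩ := h
  exact ⟨n, fun M B a1 a2 a3 => hn M B (fun c hc => a1 c (hC c hc))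
    (fun z hz => a2 z (hZ z hz)) a3⟩

theorem S_shift {s i : ℕ} : (Nat.shiftLeft s 512).testBit i = true →
    ∃ j, i = j + 512 ∧ s.testBit j = true := by
  intro h
  have h' : ((s <<< 512).testBit i) = true := h
  rw [Nat.testBit_shiftLeft] at h'
  simp only [ge_iff_le, Bool.and_eq_true, decide_eq_true_eq] at h'
  exact ⟨i - 512, by omega, h'.2⟩

theorem isCopy_snaky : IsCopy snaky :=
  ⟨1, 1, false, (0, 0), Or.inl rfl, Or.inl rfl, by
    simp [signedPerm, snaky, Finset.image_insert]⟩

theorem fact_base {c z : ℕ} (hv : sub (Nat.lor c z) VALID = true)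
    (h : Nat.beq c snakyMask = true) : Fact c z := by
  have hc : c = snakyMask := Nat.eq_of_beq_eq_true h
  refine ⟨fun i hi => valid_bits i (sub_bit hv hi), FactS.won isCopy_snaky fun a ha => ?_⟩
  subst hc
  simp only [snaky, Finset.mem_insert, Finset.mem_singleton] at ha
  rcases ha with rfl | rfl | rfl | rfl | rfl | rfl
  · exact ⟨0, by decide +kernel, by decide⟩
  · exact ⟨1, by decide +kernel, by decide⟩
  · exact ⟨2, by decide +kernel, by decide⟩
  · exact ⟨3, by decide +kernel, by decide⟩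
  · exact ⟨35, by decide +kernel, by decide⟩
  · exact ⟨36, by decide +kernel, by decide⟩

/-- The semantic content of one reference. -/
structure GoodRf (C U : ℕ) (R : Rf) : Prop where
  fact : FactS R.C R.Z
  hC : ∀ c ∈ R.C, c ≠ R.m → c ∈ S C
  hZ : ∀ z ∈ R.Z, z ∈ S U
  hm : R.m ∈ S U

theorem ref_sound {c z C U g sh m : ℕ} (hF : Fact c z)
    (hCU : ∀ k, C.testBit k = true → U.testBit k = true)
    (hU : ∀ k, U.testBit k = true → k % 32 < 16)
    (h1 : sub (place g sh c) (Nat.lor C (Nat.shiftLeft 1 m)) = true)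
    (h2 : sub (Nat.lor (place g sh z) (Nat.shiftLeft 1 m)) U = true) :
    ∃ R : Rf, GoodRf C U R ∧ ∀ k, (pt k ∈ R.Z ∨ pt k = R.m) →
      (Nat.lor (place g sh z) (Nat.shiftLeft 1 m)).testBit k = true := by
  obtain ⟨hv, hFS⟩ := hF
  have hm1 : ∀ k, (Nat.shiftLeft 1 m).testBit k = true ↔ k = m := by
    intro k
    change ((1 <<< m).testBit k) = true ↔ k = m
    rw [Nat.shiftLeft_eq, one_mul, Nat.testBit_two_pow]
    simp [eq_comm]
  have lor_iff : ∀ a b k : ℕ, (Nat.lor a b).testBit k = true ↔
      (a.testBit k = true ∨ b.testBit k = true) := by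
    intro a b k
    change ((a ||| b).testBit k) = true ↔ _
    rw [Nat.testBit_or, Bool.or_eq_true]
  have hmU : U.testBit m = true := sub_bit h2 ((lor_iff _ _ _).2 (Or.inr ((hm1 m).2 rfl)))
  have hcb : ∀ i, c.testBit i = true → VI i := fun i hi => hv i ((lor_iff _ _ _).2 (Or.inl hi))
  have hzb : ∀ i, z.testBit i = true → VI i := fun i hi => hv i ((lor_iff _ _ _).2 (Or.inr hi))
  refine ⟨⟨(symP g sh).e '' S c, (symP g sh).e '' S z, pt m⟩, ⟨hFS.image _, ?_, ?_, ?_⟩, ?_⟩
  · rintro _ ⟨_, ⟨i, hi, rfl⟩, rfl⟩ hne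
    obtain ⟨p1, p2⟩ := place_spec g sh (hcb i hi) hi
    have h3 := sub_bit h1 p1
    rw [lor_iff, hm1] at h3
    have hUk : U.testBit (pidx g i + sh) = true := by
      rcases h3 with h3 | h3
      · exact hCU _ h3
      · rw [h3]; exact hmU
    have h4 := p2 (hU _ hUk)
    rw [h4] at hne ⊢
    rcases h3 with h3 | h3
    · exact ⟨_, h3, rfl⟩
    · exact absurd (by rw [h3]) hne
  · rintro _ ⟨_, ⟨i, hi, rfl⟩, rfl⟩
    obtain ⟨p1, p2⟩ := place_spec g sh (hzb i hi) hi
    have h3 := sub_bit h2 ((lor_iff _ _ _).2 (Or.inl p1))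
    rw [p2 (hU _ h3)]
    exact ⟨_, h3, rfl⟩
  · exact ⟨m, hmU, rfl⟩
  · rintro k (⟨_, ⟨i, hi, rfl⟩, hik⟩ | hk)
    · obtain ⟨p1, p2⟩ := place_spec g sh (hzb i hi) hi
      have h3 := sub_bit h2 ((lor_iff _ _ _).2 (Or.inl p1))
      rw [p2 (hU _ h3)] at hik
      rw [← pt_inj hik]
      exact (lor_iff _ _ _).2 (Or.inl p1)
    · rw [pt_inj hk]
      exact (lor_iff _ _ _).2 (Or.inr ((hm1 m).2 rfl))

theorem refs_sound {T : Tree} {id C U : ℕ}
    (hT : ∀ id' c z, id' < id → T.Mem id' c z → Fact c z)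
    (hCU : ∀ k, C.testBit k = true → U.testBit k = true)
    (hU : ∀ k, U.testBit k = true → k % 32 < 16) (refs : List ℕ) :
    ∀ acc, checkRefs T id C U refs acc = true →
      ∃ L : List Rf, L.length = refs.length ∧ (∀ R ∈ L, GoodRf C U R) ∧
        ∀ k, acc.testBit k = true → (∀ R ∈ L, pt k ∈ R.Z ∨ pt k = R.m) → C.testBit k = true := by
  induction refs with
  | nil =>
    intro acc h
    exact ⟨[], rfl, by simp, fun k hk _ => sub_bit (show sub acc C = true from h) hk⟩
  | cons r rs ih =>
    intro acc h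
    change checkRef (T.get (Nat.land r 16383)) id C U
      (Nat.land (Nat.shiftRight r 14) 7) (Nat.land (Nat.shiftRight r 17) 1023)
      (Nat.shiftLeft 1 (Nat.shiftRight r 27)) (checkRefs T id C U rs) acc = true at h
    unfold checkRef at h
    have hg := T.get_mem (Nat.land r 16383)
    generalize T.get (Nat.land r 16383) = e at *
    generalize Nat.land (Nat.shiftRight r 14) 7 = g at *
    generalize Nat.land (Nat.shiftRight r 17) 1023 = sh at *
    generalize Nat.shiftRight r 27 = m at *
    have h' : (Nat.ble (Nat.succ e.1) id = true ∧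
      sub (place g sh e.2.1) (Nat.lor C (Nat.shiftLeft 1 m)) = true ∧
      sub (Nat.lor (place g sh e.2.2) (Nat.shiftLeft 1 m)) U = true ∧
      checkRefs T id C U rs
        (Nat.land acc (Nat.lor (place g sh e.2.2) (Nat.shiftLeft 1 m))) = true) := by
      simpa [Bool.and_eq_true] using h
    obtain ⟨a1, a2, a3, a4⟩ := h'
    have hlt : e.1 < id := Nat.le_of_ble_eq_true a1
    obtain ⟨R, hR, hR2⟩ := ref_sound (hT _ _ _ hlt hg) hCU hU a2 a3
    obtain ⟨L, hL1, hL2, hL3⟩ := ih _ a4
    refine ⟨R :: L, by simp [hL1], ?_, ?_⟩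
    · intro R' hR'
      rcases List.mem_cons.1 hR' with rfl | h
      · exact hR
      · exact hL2 _ h
    · intro k hk hall
      refine hL3 k ?_ (fun R' hR' => hall R' (by simp [hR']))
      change ((acc &&& (Nat.lor (place g sh e.2.2) (Nat.shiftLeft 1 m))).testBit k) = true
      rw [Nat.testBit_and, hk, hR2 k (hall R (by simp))]
      rfl

theorem leaf_sound {T : Tree} {id c z : ℕ} {refs : List ℕ}
    (hT : ∀ id' c z, id' < id → T.Mem id' c z → Fact c z)
    (h : checkLeaf T id c z refs = true) : Fact c z := by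
  unfold checkLeaf at h
  rw [Bool.and_eq_true] at h
  obtain ⟨hv, h⟩ := h
  cases refs with
  | nil => exact fact_base hv h
  | cons r rs =>
    have h' : checkRefs T id (Nat.shiftLeft c 512) (Nat.shiftLeft (Nat.lor c z) 512) (r :: rs)
      (Nat.shiftLeft (Nat.lor c z) 512) = true := h
    have hvi : ∀ i, (Nat.lor c z).testBit i = true → VI i :=
      fun i hi => valid_bits i (sub_bit hv hi)
    have lor_iff : ∀ a b k : ℕ, (Nat.lor a b).testBit k = true ↔
        (a.testBit k = true ∨ b.testBit k = true) := by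
      intro a b k
      change ((a ||| b).testBit k) = true ↔ _
      rw [Nat.testBit_or, Bool.or_eq_true]
    have shl : ∀ s k : ℕ, s.testBit k = true → (Nat.shiftLeft s 512).testBit (k + 512) = true := by
      intro s k hk
      change ((s <<< 512).testBit (k + 512)) = true
      rw [Nat.testBit_shiftLeft]
      simp [hk]
    obtain ⟨L, hL1, hL2, hL3⟩ := refs_sound (C := Nat.shiftLeft c 512)
      (U := Nat.shiftLeft (Nat.lor c z) 512) hT (by
        intro k hk
        obtain ⟨j, rfl, hj⟩ := S_shift hk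
        exact shl _ _ ((lor_iff _ _ _).2 (Or.inl hj))) (by
        intro k hk
        obtain ⟨j, rfl, hj⟩ := S_shift hk
        have := (hvi j hj).2
        omega) (r :: rs) _ h'
    have split : ∀ x, x ∈ S (Nat.shiftLeft (Nat.lor c z) 512) →
        x ∈ S (Nat.shiftLeft c 512) ∨ x ∈ S (Nat.shiftLeft z 512) := by
      rintro _ ⟨k, hk, rfl⟩
      obtain ⟨j, rfl, hj⟩ := S_shift hk
      rcases (lor_iff _ _ _).1 hj with hj | hj
      · exact Or.inl ⟨_, shl _ _ hj, rfl⟩
      · exact Or.inr ⟨_, shl _ _ hj, rfl⟩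
    have key : FactS (S (Nat.shiftLeft c 512)) (S (Nat.shiftLeft z 512)) := by
      refine FactS.step L (fun R hR => (hL2 R hR).fact) (fun R hR => (hL2 R hR).hC)
        (fun R hR z hz => split z ((hL2 R hR).hZ z hz)) (fun R hR => split _ (hL2 R hR).hm) ?_
      intro b hb
      obtain ⟨R0, hR0⟩ : ∃ R0, R0 ∈ L := by
        cases L with
        | nil => simp at hL1
        | cons R L => exact ⟨R, by simp⟩
      have hbU : b ∈ S (Nat.shiftLeft (Nat.lor c z) 512) := by
        rcases hb R0 hR0 with h | h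
        · exact (hL2 R0 hR0).hZ b h
        · rw [h]; exact (hL2 R0 hR0).hm
      obtain ⟨k, hk, rfl⟩ := hbU
      exact ⟨k, hL3 k hk hb, rfl⟩
    refine ⟨hvi, ?_⟩
    have key2 := key.image (symTr (0, -16))
    have sh : ∀ s : ℕ, ∀ x ∈ (symTr (0, -16)).e '' S (Nat.shiftLeft s 512), x ∈ S s := by
      rintro s _ ⟨_, ⟨k, hk, rfl⟩, rfl⟩
      obtain ⟨j, rfl, hj⟩ := S_shift hk
      refine ⟨j, hj, ?_⟩
      change pt (j + 512) + (0, -16) = pt j
      simp only [pt, Prod.mk_add_mk, Prod.mk.injEq]
      constructor <;> omega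
    exact key2.mono (sh c) (sh z)

theorem tree_mem_sound {T : Tree} {n : ℕ}
    (hT : ∀ id' c z, id' < n → T.Mem id' c z → Fact c z) (t : Tree) (ht : checkTree T t = true) :
    ∀ id c z, id ≤ n → t.Mem id c z → Fact c z := by
  induction t with
  | leaf id' c' z' refs =>
    rintro id c z hid ⟨rfl, rfl, rfl⟩
    exact leaf_sound (fun id' c z h hm => hT id' c z (by omega) hm) ht
  | node p l r ihl ihr =>
    have h : checkTree T l = true ∧ checkTree T r = true := by
      have : and (checkTree T l) (checkTree T r) = true := ht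
      simpa [Bool.and_eq_true] using this
    intro id c z hid hm
    rcases hm with hm | hm
    · exact ihl h.1 id c z hid hm
    · exact ihr h.2 id c z hid hm

/-- Soundness of the checker. -/
theorem tree_sound {T : Tree} (h : checkTree T T = true) :
    ∀ n id c z, id < n → T.Mem id c z → Fact c z := by
  intro n
  induction n with
  | zero => intro id c z h; exact absurd h (Nat.not_lt_zero _)
  | succ n ih =>
    intro id c z hid hm
    exact tree_mem_sound (n := n) ih T h id c z (Nat.lt_succ_iff.1 hid) hm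

theorem strategy_of_tree {T : Tree} (h : checkTree T T = true) (j k : ℕ)
    (hr : (T.get j).2.1 = 2 ^ k) : MakerHasWinningStrategy := by
  have h1 := tree_sound h _ _ _ _ (Nat.lt_succ_self _) (T.get_mem j)
  rw [hr] at h1
  obtain ⟨_, h2⟩ := h1
  have : S (2 ^ k) = {pt k} := by
    ext x
    constructor
    · rintro ⟨i, hi, rfl⟩
      rw [Nat.testBit_two_pow] at hi
      have : k = i := by simpa using hi
      rw [this]; rfl
    · rintro rfl
      exact ⟨k, by simp, rfl⟩
  rw [this] at h2
  exact strategy_of_fact h2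

end Vale.Agent.P062
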