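import Vale.Agent.P062.Top

namespace Vale.Agent.P062

theorem ok0 : checkTree top c0 = true := by decide +kernel

theorem ok1 : checkTree top c1 = true := by decide +kernel

theorem ok2 : checkTree top c2 = true := by decide +kernel

theorem ok3 : checkTree top c3 = true := by decide +kernel

theorem ok4 : checkTree top c4 = true := by decide +kernel

theorem ok5 : checkTree top c5 = true := by decide +kernel

theorem ok6 : checkTree top c6 = true := by decide +kernel

theorem ok7 : checkTree top c7 = true := by decide +kernel

theorem ok8 : checkTree top c8 = true := by decide +kernel

theorem ok9 : checkTree top c9 = true := by decide +kernel

theorem ok10 : checkTree top c10 = true := by decide +kernel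

theorem ok11 : checkTree top c11 = true := by decide +kernel

theorem ok12 : checkTree top c12 = true := by decide +kernel

theorem ok13 : checkTree top c13 = true := by decide +kernel

theorem ok14 : checkTree top c14 = true := by decide +kernel

theorem ok15 : checkTree top c15 = true := by decide +kernel

theorem ok16 : checkTree top c16 = true := by decide +kernel

theorem ok17 : checkTree top c17 = true := by decide +kernel

theorem ok18 : checkTree top c18 = true := by decide +kernel

theorem ok19 : checkTree top c19 = true := by decide +kernel

end Vale.Agent.P062
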