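import Vale.Agent.P062.Top

namespace Vale.Agent.P062

theorem ok20 : checkTree top c20 = true := by decide +kernel

theorem ok21 : checkTree top c21 = true := by decide +kernel

theorem ok22 : checkTree top c22 = true := by decide +kernel

theorem ok23 : checkTree top c23 = true := by decide +kernel

theorem ok24 : checkTree top c24 = true := by decide +kernel

theorem ok25 : checkTree top c25 = true := by decide +kernel

theorem ok26 : checkTree top c26 = true := by decide +kernel

theorem ok27 : checkTree top c27 = true := by decide +kernel

theorem ok28 : checkTree top c28 = true := by decide +kernel

theorem ok29 : checkTree top c29 = true := by decide +kernel

theorem ok30 : checkTree top c30 = true := by decide +kernel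

theorem ok31 : checkTree top c31 = true := by decide +kernel

theorem ok32 : checkTree top c32 = true := by decide +kernel

theorem ok33 : checkTree top c33 = true := by decide +kernel

theorem ok34 : checkTree top c34 = true := by decide +kernel

theorem ok35 : checkTree top c35 = true := by decide +kernel

theorem ok36 : checkTree top c36 = true := by decide +kernel

theorem ok37 : checkTree top c37 = true := by decide +kernel

theorem ok38 : checkTree top c38 = true := by decide +kernel

theorem ok39 : checkTree top c39 = true := by decide +kernel

end Vale.Agent.P062
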