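import Vale.Agent.P062.Top

namespace Vale.Agent.P062

theorem ok40 : checkTree top c40 = true := by decide +kernel

theorem ok41 : checkTree top c41 = true := by decide +kernel

theorem ok42 : checkTree top c42 = true := by decide +kernel

theorem ok43 : checkTree top c43 = true := by decide +kernel

theorem ok44 : checkTree top c44 = true := by decide +kernel

theorem ok45 : checkTree top c45 = true := by decide +kernel

theorem ok46 : checkTree top c46 = true := by decide +kernel

theorem ok47 : checkTree top c47 = true := by decide +kernel

theorem ok48 : checkTree top c48 = true := by decide +kernel

theorem ok49 : checkTree top c49 = true := by decide +kernel

theorem ok50 : checkTree top c50 = true := by decide +kernel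

theorem ok51 : checkTree top c51 = true := by decide +kernel

theorem ok52 : checkTree top c52 = true := by decide +kernel

theorem ok53 : checkTree top c53 = true := by decide +kernel

theorem ok54 : checkTree top c54 = true := by decide +kernel

theorem ok55 : checkTree top c55 = true := by decide +kernel

theorem ok56 : checkTree top c56 = true := by decide +kernel

theorem ok57 : checkTree top c57 = true := by decide +kernel

theorem ok58 : checkTree top c58 = true := by decide +kernel

theorem ok59 : checkTree top c59 = true := by decide +kernel

end Vale.Agent.P062
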