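import Vale.Agent.P062.Top

namespace Vale.Agent.P062

theorem ok60 : checkTree top c60 = true := by decide +kernel

theorem ok61 : checkTree top c61 = true := by decide +kernel

theorem ok62 : checkTree top c62 = true := by decide +kernel

theorem ok63 : checkTree top c63 = true := by decide +kernel

theorem ok64 : checkTree top c64 = true := by decide +kernel

theorem ok65 : checkTree top c65 = true := by decide +kernel

theorem ok66 : checkTree top c66 = true := by decide +kernel

theorem ok67 : checkTree top c67 = true := by decide +kernel

theorem ok68 : checkTree top c68 = true := by decide +kernel

theorem ok69 : checkTree top c69 = true := by decide +kernel

theorem ok70 : checkTree top c70 = true := by decide +kernel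

theorem ok71 : checkTree top c71 = true := by decide +kernel

theorem ok72 : checkTree top c72 = true := by decide +kernel

theorem ok73 : checkTree top c73 = true := by decide +kernel

theorem ok74 : checkTree top c74 = true := by decide +kernel

theorem ok75 : checkTree top c75 = true := by decide +kernel

theorem ok76 : checkTree top c76 = true := by decide +kernel

theorem ok77 : checkTree top c77 = true := by decide +kernel

theorem ok78 : checkTree top c78 = true := by decide +kernel

theorem ok79 : checkTree top c79 = true := by decide +kernel

end Vale.Agent.P062
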