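import Vale.Agent.P062.Top

namespace Vale.Agent.P062

theorem ok80 : checkTree top c80 = true := by decide +kernel

theorem ok81 : checkTree top c81 = true := by decide +kernel

theorem ok82 : checkTree top c82 = true := by decide +kernel

theorem ok83 : checkTree top c83 = true := by decide +kernel

theorem ok84 : checkTree top c84 = true := by decide +kernel

theorem ok85 : checkTree top c85 = true := by decide +kernel

theorem ok86 : checkTree top c86 = true := by decide +kernel

theorem ok87 : checkTree top c87 = true := by decide +kernel

theorem ok88 : checkTree top c88 = true := by decide +kernel

theorem ok89 : checkTree top c89 = true := by decide +kernel

theorem ok90 : checkTree top c90 = true := by decide +kernel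

theorem ok91 : checkTree top c91 = true := by decide +kernel

theorem ok92 : checkTree top c92 = true := by decide +kernel

theorem ok93 : checkTree top c93 = true := by decide +kernel

theorem ok94 : checkTree top c94 = true := by decide +kernel

theorem ok95 : checkTree top c95 = true := by decide +kernel

theorem ok96 : checkTree top c96 = true := by decide +kernel

theorem ok97 : checkTree top c97 = true := by decide +kernel

theorem ok98 : checkTree top c98 = true := by decide +kernel

theorem ok99 : checkTree top c99 = true := by decide +kernel

end Vale.Agent.P062
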