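import Vale.Agent.P062.Top

namespace Vale.Agent.P062

theorem ok100 : checkTree top c100 = true := by decide +kernel

theorem ok101 : checkTree top c101 = true := by decide +kernel

theorem ok102 : checkTree top c102 = true := by decide +kernel

theorem ok103 : checkTree top c103 = true := by decide +kernel

theorem ok104 : checkTree top c104 = true := by decide +kernel

theorem ok105 : checkTree top c105 = true := by decide +kernel

theorem ok106 : checkTree top c106 = true := by decide +kernel

theorem ok107 : checkTree top c107 = true := by decide +kernel

theorem ok108 : checkTree top c108 = true := by decide +kernel

theorem ok109 : checkTree top c109 = true := by decide +kernel

theorem ok110 : checkTree top c110 = true := by decide +kernel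

theorem ok111 : checkTree top c111 = true := by decide +kernel

theorem ok112 : checkTree top c112 = true := by decide +kernel

theorem ok113 : checkTree top c113 = true := by decide +kernel

theorem ok114 : checkTree top c114 = true := by decide +kernel

theorem ok115 : checkTree top c115 = true := by decide +kernel

theorem ok116 : checkTree top c116 = true := by decide +kernel

theorem ok117 : checkTree top c117 = true := by decide +kernel

theorem ok118 : checkTree top c118 = true := by decide +kernel

theorem ok119 : checkTree top c119 = true := by decide +kernel

end Vale.Agent.P062
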