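import Vale.Agent.P062.Top

namespace Vale.Agent.P062

theorem ok120 : checkTree top c120 = true := by decide +kernel

theorem ok121 : checkTree top c121 = true := by decide +kernel

theorem ok122 : checkTree top c122 = true := by decide +kernel

theorem ok123 : checkTree top c123 = true := by decide +kernel

theorem ok124 : checkTree top c124 = true := by decide +kernel

theorem ok125 : checkTree top c125 = true := by decide +kernel

theorem ok126 : checkTree top c126 = true := by decide +kernel

theorem ok127 : checkTree top c127 = true := by decide +kernel

theorem ok128 : checkTree top c128 = true := by decide +kernel

theorem ok129 : checkTree top c129 = true := by decide +kernel

theorem ok130 : checkTree top c130 = true := by decide +kernel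

theorem ok131 : checkTree top c131 = true := by decide +kernel

theorem ok132 : checkTree top c132 = true := by decide +kernel

theorem ok133 : checkTree top c133 = true := by decide +kernel

theorem ok134 : checkTree top c134 = true := by decide +kernel

theorem ok135 : checkTree top c135 = true := by decide +kernel

theorem ok136 : checkTree top c136 = true := by decide +kernel

theorem ok137 : checkTree top c137 = true := by decide +kernel

theorem ok138 : checkTree top c138 = true := by decide +kernel

theorem ok139 : checkTree top c139 = true := by decide +kernel

end Vale.Agent.P062
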