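import Vale.Agent.P062.Top

namespace Vale.Agent.P062

theorem ok140 : checkTree top c140 = true := by decide +kernel

theorem ok141 : checkTree top c141 = true := by decide +kernel

theorem ok142 : checkTree top c142 = true := by decide +kernel

theorem ok143 : checkTree top c143 = true := by decide +kernel

theorem ok144 : checkTree top c144 = true := by decide +kernel

theorem ok145 : checkTree top c145 = true := by decide +kernel

theorem ok146 : checkTree top c146 = true := by decide +kernel

theorem ok147 : checkTree top c147 = true := by decide +kernel

theorem ok148 : checkTree top c148 = true := by decide +kernel

theorem ok149 : checkTree top c149 = true := by decide +kernel

theorem ok150 : checkTree top c150 = true := by decide +kernel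

theorem ok151 : checkTree top c151 = true := by decide +kernel

theorem ok152 : checkTree top c152 = true := by decide +kernel

theorem ok153 : checkTree top c153 = true := by decide +kernel

theorem ok154 : checkTree top c154 = true := by decide +kernel

theorem ok155 : checkTree top c155 = true := by decide +kernel

theorem ok156 : checkTree top c156 = true := by decide +kernel

theorem ok157 : checkTree top c157 = true := by decide +kernel

theorem ok158 : checkTree top c158 = true := by decide +kernel

theorem ok159 : checkTree top c159 = true := by decide +kernel

end Vale.Agent.P062
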