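import Vale.Agent.P062.Top

namespace Vale.Agent.P062

theorem ok160 : checkTree top c160 = true := by decide +kernel

theorem ok161 : checkTree top c161 = true := by decide +kernel

theorem ok162 : checkTree top c162 = true := by decide +kernel

theorem ok163 : checkTree top c163 = true := by decide +kernel

theorem ok164 : checkTree top c164 = true := by decide +kernel

theorem ok165 : checkTree top c165 = true := by decide +kernel

theorem ok166 : checkTree top c166 = true := by decide +kernel

theorem ok167 : checkTree top c167 = true := by decide +kernel

theorem ok168 : checkTree top c168 = true := by decide +kernel

theorem ok169 : checkTree top c169 = true := by decide +kernel

theorem ok170 : checkTree top c170 = true := by decide +kernel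

theorem ok171 : checkTree top c171 = true := by decide +kernel

theorem ok172 : checkTree top c172 = true := by decide +kernel

theorem ok173 : checkTree top c173 = true := by decide +kernel

theorem ok174 : checkTree top c174 = true := by decide +kernel

theorem ok175 : checkTree top c175 = true := by decide +kernel

theorem ok176 : checkTree top c176 = true := by decide +kernel

theorem ok177 : checkTree top c177 = true := by decide +kernel

theorem ok178 : checkTree top c178 = true := by decide +kernel

theorem ok179 : checkTree top c179 = true := by decide +kernel

end Vale.Agent.P062
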