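import Vale.Agent.P062.Top

namespace Vale.Agent.P062

theorem ok180 : checkTree top c180 = true := by decide +kernel

theorem ok181 : checkTree top c181 = true := by decide +kernel

theorem ok182 : checkTree top c182 = true := by decide +kernel

theorem ok183 : checkTree top c183 = true := by decide +kernel

theorem ok184 : checkTree top c184 = true := by decide +kernel

theorem ok185 : checkTree top c185 = true := by decide +kernel

theorem ok186 : checkTree top c186 = true := by decide +kernel

theorem ok187 : checkTree top c187 = true := by decide +kernel

theorem ok188 : checkTree top c188 = true := by decide +kernel

theorem ok189 : checkTree top c189 = true := by decide +kernel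

theorem ok190 : checkTree top c190 = true := by decide +kernel

theorem ok191 : checkTree top c191 = true := by decide +kernel

end Vale.Agent.P062
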