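import Mathlib

/-! The Snaky achievement game on the infinite board `ℤ × ℤ`: definitions. -/

namespace Vale.Agent.P062

/-- A cell of the board `ℤ²`. -/
abbrev Cell := ℤ × ℤ

/-- The hexomino Snaky. -/
def snaky : Finset Cell := {(0, 0), (1, 0), (2, 0), (3, 0), (3, 1), (4, 1)}

/-- The signed permutation matrices of size two, acting on cells:
`(x, y) ↦ (a x, b y)` (no swap) or `(x, y) ↦ (a y, b x)` (swap), with `a, b = ±1`. -/
def signedPerm (a b : ℤ) (swap : Bool) (c : Cell) : Cell :=
  if swap then (a * c.2, b * c.1) else (a * c.1, b * c.2)

/-- An allowed copy of Snaky: `t + R(S)` with `t ∈ ℤ²` and `R` one of the eight signed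
permutation matrices. -/
def IsCopy (A : Finset Cell) : Prop :=
  ∃ (a b : ℤ) (swap : Bool) (t : Cell), (a = 1 ∨ a = -1) ∧ (b = 1 ∨ b = -1) ∧
    A = snaky.image (fun c => t + signedPerm a b swap c)

/-- The first `k` moves of Breaker, most recent first, when Breaker plays the sequence `b`. -/
def history (b : ℕ → Cell) : ℕ → List Cell
  | 0 => []
  | k + 1 => b k :: history b k

/-- A strategy `σ` of Maker tells, from the list of all earlier Breaker moves, the next Maker
move. This is Maker's move number `k` (counted from `0`) against the Breaker sequence `b`. -/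
def makerMove (σ : List Cell → Cell) (b : ℕ → Cell) (k : ℕ) : Cell := σ (history b k)

/-- The cells claimed by Maker in its first `k` moves. -/
def makerCells (σ : List Cell → Cell) (b : ℕ → Cell) (k : ℕ) : Finset Cell :=
  (Finset.range k).image (makerMove σ b)

/-- The cells claimed by Breaker in its first `k` moves. -/
def breakerCells (b : ℕ → Cell) (k : ℕ) : Finset Cell := (Finset.range k).image b

/-- Maker's move number `k` claims a previously unclaimed cell
(at that time each player has made `k` moves). -/
def MakerLegal (σ : List Cell → Cell) (b : ℕ → Cell) (k : ℕ) : Prop :=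
  makerMove σ b k ∉ makerCells σ b k ∧ makerMove σ b k ∉ breakerCells b k

/-- Breaker's move number `k` claims a previously unclaimed cell
(at that time Maker has made `k + 1` moves and Breaker `k`). -/
def BreakerLegal (σ : List Cell → Cell) (b : ℕ → Cell) (k : ℕ) : Prop :=
  b k ∉ makerCells σ b (k + 1) ∧ b k ∉ breakerCells b k

/-- Maker (who moves first on the empty board) has a winning strategy in the achievement game for
Snaky on `ℤ²`: a strategy such that against every legal play of Breaker, Maker's moves are legal
up to a time `n` at which Maker owns all cells of an allowed copy of Snaky. -/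
def MakerHasWinningStrategy : Prop :=
  ∃ σ : List Cell → Cell, ∀ b : ℕ → Cell, (∀ k, BreakerLegal σ b k) →
    ∃ n : ℕ, (∀ k < n, MakerLegal σ b k) ∧ ∃ A, IsCopy A ∧ A ⊆ makerCells σ b n

end Vale.Agent.P062
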