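import Mathlib

/-! The Snaky achievement game on the boards `ℤ^d`, `d ≥ 2`: definitions.  A play is the sequence
`x 0, x 1, x 2, …` of all claimed cells; Maker claims `x 0, x 2, x 4, …` and Breaker claims
`x 1, x 3, x 5, …`. -/

namespace Vale.Agent.P062

/-- The hexomino Snaky as a set of cells of the plane. -/
def snakyCells : Finset (ℤ × ℤ) := {(0, 0), (1, 0), (2, 0), (3, 0), (3, 1), (4, 1)}

/-- The embedding `(a, b) ↦ (a, b, 0, …, 0)` of the plane into `ℤ^d`. -/
def emb (d : ℕ) (c : ℤ × ℤ) : Fin d → ℤ :=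
  fun i => if i.val = 0 then c.1 else if i.val = 1 then c.2 else 0

/-- An allowed copy of Snaky in `ℤ^d`: the image of `S × {0}^(d-2)` under a signed coordinate
permutation `v ↦ (s i * v (π i))_i` followed by a translation. -/
def IsCopyD (d : ℕ) (A : Finset (Fin d → ℤ)) : Prop :=
  ∃ (t s : Fin d → ℤ) (π : Equiv.Perm (Fin d)), (∀ i, s i = 1 ∨ s i = -1) ∧
    A = snakyCells.image (fun c i => t i + s i * emb d c (π i))

/-- Move number `k` of the play `x` claims a cell not claimed before. -/
def LegalMove {d : ℕ} (x : ℕ → Fin d → ℤ) (k : ℕ) : Prop := ∀ j < k, x j ≠ x k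

/-- In the play `x`, Maker owns an allowed copy after its first `n` moves. -/
def MakerOwnsCopy {d : ℕ} (x : ℕ → Fin d → ℤ) (n : ℕ) : Prop :=
  ∃ A, IsCopyD d A ∧ ∀ a ∈ A, ∃ k < n, x (2 * k) = a

/-- Maker, moving first, has a strategy (a function of the list of all earlier moves) with which
all its moves are legal and with which it owns an allowed copy after at most `N` moves against
every play of Breaker whose first `N` moves are legal. -/
def MakerWinsWithin (d N : ℕ) : Prop :=
  ∃ σ : List (Fin d → ℤ) → (Fin d → ℤ), ∀ x : ℕ → Fin d → ℤ,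
    (∀ k, x (2 * k) = σ ((List.range (2 * k)).map x)) →
    (∀ k, LegalMove x (2 * k)) ∧
    ((∀ k < N, LegalMove x (2 * k + 1)) → MakerOwnsCopy x N)

/-- Breaker has a strategy (a function of the list of all earlier moves) with which, against every
legal play of Maker, all its moves are legal and Maker never owns an allowed copy. -/
def BreakerPrevents (d : ℕ) : Prop :=
  ∃ τ : List (Fin d → ℤ) → (Fin d → ℤ), ∀ x : ℕ → Fin d → ℤ,
    (∀ k, x (2 * k + 1) = τ ((List.range (2 * k + 1)).map x)) →
    (∀ k, LegalMove x (2 * k)) →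
    (∀ k, LegalMove x (2 * k + 1)) ∧ ∀ n, ¬ MakerOwnsCopy x n

end Vale.Agent.P062
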