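import Vale.Agent.P062.Defs

/-! Abstract part: positions won by Maker, facts `FactS C Z`, and the step rule. -/

namespace Vale.Agent.P062

open Classical

/-- Maker owns an allowed copy. -/
def Won (M : Finset Cell) : Prop := ∃ A, IsCopy A ∧ A ⊆ M

/-- Breaker is to move, Maker owns `M`, Breaker owns `B`, and Maker can win within `n` further
moves. -/
def WB : ℕ → Finset Cell → Finset Cell → Prop
  | 0, M, _ => Won M
  | n + 1, M, B => Won M ∨ ∀ b, b ∉ M → b ∉ B →
      ∃ m, m ∉ M ∧ m ∉ B ∧ m ≠ b ∧ WB n (insert m M) (insert b B)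

theorem WB.succ {n : ℕ} : ∀ {M B : Finset Cell}, WB n M B → WB (n + 1) M B := by
  induction n with
  | zero => intro M B h; exact Or.inl h
  | succ n ih =>
    intro M B h
    rcases h with h | h
    · exact Or.inl h
    · refine Or.inr fun b hb hb' => ?_
      obtain ⟨m, h1, h2, h3, h4⟩ := h b hb hb'
      exact ⟨m, h1, h2, h3, ih h4⟩

theorem WB.mono {n k : ℕ} (h : n ≤ k) {M B : Finset Cell} (hw : WB n M B) : WB k M B := by
  induction h with
  | refl => exact hw
  | step _ ih => exact ih.succ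

/-- A symmetry of the game: a bijection of the board mapping copies to copies. -/
structure Sym where
  e : Cell ≃ Cell
  copy : ∀ A, IsCopy A → IsCopy (A.image e)

theorem WB.image (T : Sym) {n : ℕ} : ∀ {M B : Finset Cell}, WB n M B →
    WB n (M.image T.e) (B.image T.e) := by
  have won : ∀ {M : Finset Cell}, Won M → Won (M.image T.e) := by
    rintro M ⟨A, hA, hAM⟩
    exact ⟨A.image T.e, T.copy A hA, Finset.image_subset_image hAM⟩
  induction n with
  | zero => intro M B h; exact won h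
  | succ n ih =>
    intro M B h
    rcases h with h | h
    · exact Or.inl (won h)
    · refine Or.inr fun b hb hb' => ?_
      obtain ⟨m, h1, h2, h3, h4⟩ := h (T.e.symm b)
        (fun hc => hb (Finset.mem_image.2 ⟨_, hc, by simp⟩))
        (fun hc => hb' (Finset.mem_image.2 ⟨_, hc, by simp⟩))
      refine ⟨T.e m, ?_, ?_, ?_, ?_⟩
      · intro hc
        obtain ⟨x, hx, hxe⟩ := Finset.mem_image.1 hc
        exact h1 (T.e.injective hxe ▸ hx)
      · intro hc
        obtain ⟨x, hx, hxe⟩ := Finset.mem_image.1 hc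
        exact h2 (T.e.injective hxe ▸ hx)
      · intro hc
        exact h3 (by rw [← hc]; simp)
      · have := ih h4
        simpa [Finset.image_insert] using this

/-- With Breaker to move, Maker wins from every position in which Maker owns all of `C` and
Breaker owns nothing of `Z` (uniformly bounded number of moves). -/
def FactS (C Z : Set Cell) : Prop :=
  ∃ n, ∀ M B : Finset Cell, (∀ c ∈ C, c ∈ M) → (∀ z ∈ Z, z ∉ B) → (∀ c ∈ M, c ∉ B) → WB n M B

theorem FactS.image {C Z : Set Cell} (T : Sym) (h : FactS C Z) :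
    FactS (T.e '' C) (T.e '' Z) := by
  obtain ⟨n, hn⟩ := h
  refine ⟨n, fun M B hC hZ hMB => ?_⟩
  have key := hn (M.image T.e.symm) (B.image T.e.symm) ?_ ?_ ?_
  · have := WB.image T key
    rw [Finset.image_image, Finset.image_image] at this
    simpa using this
  · intro c hc
    exact Finset.mem_image.2 ⟨T.e c, hC _ ⟨c, hc, rfl⟩, by simp⟩
  · intro z hz hzB
    obtain ⟨x, hx, hxe⟩ := Finset.mem_image.1 hzB
    have : x = T.e z := by rw [← hxe]; simp
    exact hZ _ ⟨z, hz, rfl⟩ (this ▸ hx)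
  · intro c hc hcB
    obtain ⟨x, hx, hxe⟩ := Finset.mem_image.1 hc
    obtain ⟨y, hy, hye⟩ := Finset.mem_image.1 hcB
    have : x = y := T.e.symm.injective (hxe.trans hye.symm)
    exact hMB x hx (this ▸ hy)

theorem FactS.won {A : Finset Cell} (hA : IsCopy A) {C Z : Set Cell} (h : ∀ a ∈ A, a ∈ C) :
    FactS C Z :=
  ⟨0, fun M _ hC _ _ => ⟨A, hA, fun a ha => hC a (h a ha)⟩⟩

/-- A reference to an earlier fact: after the Maker move `m` the fact `(C, Z)` applies. -/
structure Rf where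
  C : Set Cell
  Z : Set Cell
  m : Cell

theorem fact_bound (L : List Rf) (hL : ∀ r ∈ L, FactS r.C r.Z) :
    ∃ n, ∀ r ∈ L, ∀ M B : Finset Cell, (∀ c ∈ r.C, c ∈ M) → (∀ z ∈ r.Z, z ∉ B) →
      (∀ c ∈ M, c ∉ B) → WB n M B := by
  induction L with
  | nil => exact ⟨0, by simp⟩
  | cons r L ih =>
    obtain ⟨n1, h1⟩ := hL r (by simp)
    obtain ⟨n2, h2⟩ := ih (fun s hs => hL s (by simp [hs]))
    refine ⟨max n1 n2, fun s hs M B a1 a2 a3 => ?_⟩
    rcases List.mem_cons.1 hs with rfl | hs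
    · exact (h1 M B a1 a2 a3).mono (le_max_left _ _)
    · exact (h2 s hs M B a1 a2 a3).mono (le_max_right _ _)

theorem FactS.step {C Z : Set Cell} (L : List Rf) (hL : ∀ r ∈ L, FactS r.C r.Z)
    (hC : ∀ r ∈ L, ∀ c ∈ r.C, c ≠ r.m → c ∈ C)
    (hZ : ∀ r ∈ L, ∀ z ∈ r.Z, z ∈ C ∨ z ∈ Z)
    (hm : ∀ r ∈ L, r.m ∈ C ∨ r.m ∈ Z)
    (hI : ∀ b, (∀ r ∈ L, b ∈ r.Z ∨ b = r.m) → b ∈ C) : FactS C Z := by
  obtain ⟨n, hn⟩ := fact_bound L hL
  refine ⟨n + 1, fun M B hCM hZB hMB => Or.inr fun b hb hb' => ?_⟩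
  have : ∃ r ∈ L, ¬ (b ∈ r.Z ∨ b = r.m) := by
    by_contra hcon
    push Not at hcon
    exact hb (hCM b (hI b hcon))
  obtain ⟨r, hr, hbr⟩ := this
  have hbZ : b ∉ r.Z := fun h => hbr (Or.inl h)
  have hbm : b ≠ r.m := fun h => hbr (Or.inr h)
  have hmB : r.m ∉ B := by
    rcases hm r hr with h | h
    · exact hMB _ (hCM _ h)
    · exact hZB _ h
  obtain ⟨m, hm1, hm2, hm3, hm4⟩ : ∃ m, m ∉ M ∧ m ∉ B ∧ m ≠ b ∧ (r.m ∈ insert m M) := by
    by_cases hmM : r.m ∈ M
    · obtain ⟨m, hmm⟩ := Infinite.exists_notMem_finset (M ∪ B ∪ {b})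
      simp only [Finset.mem_union, Finset.mem_singleton, not_or] at hmm
      exact ⟨m, hmm.1.1, hmm.1.2, hmm.2, Finset.mem_insert_of_mem hmM⟩
    · exact ⟨r.m, hmM, hmB, hbm.symm, Finset.mem_insert_self _ _⟩
  refine ⟨m, hm1, hm2, hm3, hn r hr _ _ ?_ ?_ ?_⟩
  · intro c hc
    by_cases hcm : c = r.m
    · rw [hcm]; exact hm4
    · exact Finset.mem_insert_of_mem (hCM _ (hC r hr c hc hcm))
  · intro z hz hzB
    rcases Finset.mem_insert.1 hzB with h | h
    · exact hbZ (h ▸ hz)
    · rcases hZ r hr z hz with h' | h'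
      · exact hMB _ (hCM _ h') h
      · exact hZB _ h' h
  · intro c hc hcB
    rcases Finset.mem_insert.1 hc with h | h
    · rcases Finset.mem_insert.1 hcB with h' | h'
      · exact hm3 (h ▸ h')
      · exact hm2 (h ▸ h')
    · rcases Finset.mem_insert.1 hcB with h' | h'
      · exact hb (h' ▸ h)
      · exact hMB _ h h'

end Vale.Agent.P062
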