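import Vale.Agent.P062.Strategy

/-! Sets of cells as bit masks (rows of width 32, valid cells have both coordinates below 16),
the eight symmetries on masks, and translations. -/

namespace Vale.Agent.P062

/-- The cell with bit index `i`. -/
def pt (i : ℕ) : Cell := (((i % 32 : ℕ) : ℤ), ((i / 32 : ℕ) : ℤ))

theorem pt_inj {i j : ℕ} (h : pt i = pt j) : i = j := by
  simp only [pt, Prod.mk.injEq, Nat.cast_inj] at h
  omega

/-- The set of cells of a mask. -/
def S (s : ℕ) : Set Cell := {c | ∃ i, s.testBit i = true ∧ c = pt i}

theorem pt_mem_S {s i : ℕ} : pt i ∈ S s ↔ s.testBit i = true := by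
  constructor
  · rintro ⟨j, hj, h⟩
    rwa [pt_inj h]
  · intro h; exact ⟨i, h, rfl⟩

/-- Masked move: bits in `K` stay, bits in `A` go up by `d`, bits in `A + d` go down by `d`. -/
def mstep (d A K s : ℕ) : ℕ :=
  Nat.lor (Nat.land s K) (Nat.lor (Nat.shiftLeft (Nat.land s A) d)
    (Nat.land (Nat.shiftRight s d) A))

/-- The corresponding map on indices. -/
def mv (d A K i : ℕ) : ℕ := if A.testBit i then i + d else if K.testBit i then i else i - d

/-- The index `i` is treated properly by `mstep`. -/
def okm (d A K i : ℕ) : Bool := A.testBit i || K.testBit i || (decide (d ≤ i) && A.testBit (i - d))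

theorem testBit_mstep (d A K s j : ℕ) : (mstep d A K s).testBit j =
    ((s.testBit j && K.testBit j) || ((decide (j ≥ d) && (s.testBit (j - d) && A.testBit (j - d)))
      || (s.testBit (d + j) && A.testBit j))) := by
  unfold mstep
  change (((s &&& K) ||| (((s &&& A) <<< d) ||| ((s >>> d) &&& A))).testBit j) = _
  simp only [Nat.testBit_or, Nat.testBit_and, Nat.testBit_shiftLeft, Nat.testBit_shiftRight]

theorem mstep_mv {d A K s i : ℕ} (hok : okm d A K i = true) (h : s.testBit i = true) :
    (mstep d A K s).testBit (mv d A K i) = true := by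
  rw [testBit_mstep]
  unfold mv
  by_cases hA : A.testBit i = true
  · simp [hA, h]
  · simp only [hA]
    by_cases hK : K.testBit i = true
    · simp [hK, h]
    · simp only [hK]
      simp only [okm, hA, hK, Bool.false_or, Bool.and_eq_true, decide_eq_true_eq]
        at hok
      obtain ⟨h1, h2⟩ := by simpa using hok
      have : d + (i - d) = i := by omega
      simp [this, h, h2]

/-- Indices of valid cells. -/
def VI (i : ℕ) : Prop := i < 512 ∧ i % 32 < 16

instance (i : ℕ) : Decidable (VI i) := by unfold VI; infer_instance

/-- All valid cells. -/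
def VALID : ℕ := 204583791292591926691396081575382549208529011407180575518006033900266475884974090617542369930984076593222635430161375266700549045759594884514604711935

def MX1 : ℕ := 68194597097530642230465360525127516402843003802393525172668677966755491961658030205847456643661358864407545143387125088900183015253198294838201570645

def MY1 : ℕ := 47633375796712597574732146226021089354182575376005377653520707098475137908593507648666590052265088665522063794694680597634489752381366009855

def MA1 : ℕ := 31755583864475065049821430817347392902788383584003585102347138065650091939062338432444393368176725777014709196463120398422993168254244006570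

def MK1 : ℕ := 136389194179183492528693188525344317397012311153392858553335563382337414890491014442163744071100521044726727398266895579568805831294900005549281138005

def MX2 : ℕ := 40916758258518385338279216315076509841705802281436115103601206780053295176994818123508473986196815318644527086032275053340109809151918976902920942387

def MY2 : ℕ := 11090509548737459610753037241430185317355056038926031959941554992250272019845812908143929085632903887568261001282864682337063469055

def MA2 : ℕ := 8872407638989967688602429793144148253884044831140825567953243993800217615876650326515143268506323110054608801026291745869650775244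

def MK2 : ℕ := 163667033034073541346462559531063563600371386780886349223991793496857561532014339498683732732879773529691750892749357880819482635837957098209445688115

def MX4 : ℕ := 12034340664270113334788004798551914659325235965128269148118001994133322110880828859855433525352004505483684437068316192158855826221152640265564983055

def MY4 : ℕ := 601217727335619256485329510049950620336053636590447082907742533519035565613993330624159583583455474486261907455

def MA4 : ℕ := 565851978668818123750898362399953525022168128555714901560228266841445238224934899410973725725605152457658265840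

def MK4 : ℕ := 192549450628321813356608076776830634548673289212050289378871564691383197344384979137165953685419358087575096082257182606343905351670687413819985104655

def MX8 : ℕ := 796045880515921893740840784340009919099334674736111188786015696109986287490171558823122061988264889467792355759382783138912642201399201885270835455

def MY8 : ℕ := 1766820105243087041267848467410591083712559083657179364930612997358944255

def MA8 : ℕ := 1759945318841362967177312092051016799340136674771353764288859639392567040

def MK8 : ℕ := 203787745412076004797655240791042539289429676732444464329220018204156489597482165988186808230102724928038151631887024769295750875394548576347907686655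

/-- Snaky as a mask. -/
def snakyMask : ℕ := 103079215119

/-- `x ↦ 15 - x` on masks. -/
def flipX (s : ℕ) : ℕ := mstep 8 MX8 0 (mstep 4 MX4 0 (mstep 2 MX2 0 (mstep 1 MX1 0 s)))
/-- `y ↦ 15 - y` on masks. -/
def flipY (s : ℕ) : ℕ := mstep 256 MY8 0 (mstep 128 MY4 0 (mstep 64 MY2 0 (mstep 32 MY1 0 s)))
/-- `(x, y) ↦ (y, x)` on masks. -/
def transp (s : ℕ) : ℕ :=
  mstep 248 MA8 MK8 (mstep 124 MA4 MK4 (mstep 62 MA2 MK2 (mstep 31 MA1 MK1 s)))

def fx (i : ℕ) : ℕ := 15 - i % 32 + 32 * (i / 32)
def fy (i : ℕ) : ℕ := i % 32 + 32 * (15 - i / 32)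
def ft (i : ℕ) : ℕ := i / 32 + 32 * (i % 32)

theorem chkX : ∀ i < 512, i % 32 < 16 →
    (okm 1 MX1 0 i = true ∧ okm 2 MX2 0 (mv 1 MX1 0 i) = true ∧
      okm 4 MX4 0 (mv 2 MX2 0 (mv 1 MX1 0 i)) = true ∧
      okm 8 MX8 0 (mv 4 MX4 0 (mv 2 MX2 0 (mv 1 MX1 0 i))) = true) ∧
      mv 8 MX8 0 (mv 4 MX4 0 (mv 2 MX2 0 (mv 1 MX1 0 i))) = fx i := by decide +kernel

theorem chkY : ∀ i < 512, i % 32 < 16 →
    (okm 32 MY1 0 i = true ∧ okm 64 MY2 0 (mv 32 MY1 0 i) = true ∧
      okm 128 MY4 0 (mv 64 MY2 0 (mv 32 MY1 0 i)) = true ∧
      okm 256 MY8 0 (mv 128 MY4 0 (mv 64 MY2 0 (mv 32 MY1 0 i))) = true) ∧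
      mv 256 MY8 0 (mv 128 MY4 0 (mv 64 MY2 0 (mv 32 MY1 0 i))) = fy i := by decide +kernel

theorem chkT : ∀ i < 512, i % 32 < 16 →
    (okm 31 MA1 MK1 i = true ∧ okm 62 MA2 MK2 (mv 31 MA1 MK1 i) = true ∧
      okm 124 MA4 MK4 (mv 62 MA2 MK2 (mv 31 MA1 MK1 i)) = true ∧
      okm 248 MA8 MK8 (mv 124 MA4 MK4 (mv 62 MA2 MK2 (mv 31 MA1 MK1 i))) = true) ∧
      mv 248 MA8 MK8 (mv 124 MA4 MK4 (mv 62 MA2 MK2 (mv 31 MA1 MK1 i))) = ft i := by
  decide +kernel

theorem flipX_bit {s i : ℕ} (hi : VI i) (h : s.testBit i = true) :
    (flipX s).testBit (fx i) = true := by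
  obtain ⟨⟨h1, h2, h3, h4⟩, h5⟩ := chkX i hi.1 hi.2
  rw [← h5]
  exact mstep_mv h4 (mstep_mv h3 (mstep_mv h2 (mstep_mv h1 h)))

theorem flipY_bit {s i : ℕ} (hi : VI i) (h : s.testBit i = true) :
    (flipY s).testBit (fy i) = true := by
  obtain ⟨⟨h1, h2, h3, h4⟩, h5⟩ := chkY i hi.1 hi.2
  rw [← h5]
  exact mstep_mv h4 (mstep_mv h3 (mstep_mv h2 (mstep_mv h1 h)))

theorem transp_bit {s i : ℕ} (hi : VI i) (h : s.testBit i = true) :
    (transp s).testBit (ft i) = true := by
  obtain ⟨⟨h1, h2, h3, h4⟩, h5⟩ := chkT i hi.1 hi.2
  rw [← h5]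
  exact mstep_mv h4 (mstep_mv h3 (mstep_mv h2 (mstep_mv h1 h)))

theorem VI_fx {i : ℕ} (h : VI i) : VI (fx i) := by unfold VI fx at *; omega
theorem VI_fy {i : ℕ} (h : VI i) : VI (fy i) := by unfold VI fy at *; omega
theorem VI_ft {i : ℕ} (h : VI i) : VI (ft i) := by
  unfold VI ft at *
  have h1 : (i / 32 + 32 * (i % 32)) % 32 = i / 32 := by
    rw [Nat.add_mul_mod_self_left, Nat.mod_eq_of_lt (by omega)]
  constructor
  · omega
  · rw [h1]; omega

/-- Every bit of a mask below `VALID` is valid. -/
theorem valid_bits : ∀ i, VALID.testBit i = true → VI i := by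
  have h1 : ∀ i < 512, VALID.testBit i = true → VI i := by decide +kernel
  intro i hi
  by_cases h : i < 512
  · exact h1 i h hi
  · exfalso
    have h2 : VALID < 2 ^ i := by
      have h3 : VALID < 2 ^ 256 * 2 ^ 256 := by decide +kernel
      rw [← pow_add] at h3
      exact lt_of_lt_of_le h3 (Nat.pow_le_pow_right (by norm_num) (by omega))
    have : VALID.testBit i = false := Nat.testBit_lt_two_pow h2
    rw [this] at hi
    exact absurd hi (by simp)

/-- `a` is contained in `b`. -/
def sub (a b : ℕ) : Bool := Nat.beq (Nat.lor a b) b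

theorem sub_bit {a b k : ℕ} (h : sub a b = true) (hk : a.testBit k = true) :
    b.testBit k = true := by
  have h' : a ||| b = b := Nat.eq_of_beq_eq_true h
  rw [← h', Nat.testBit_or, hk, Bool.true_or]

/-! Symmetries of the game. -/

theorem Sym.ext_image (e : Cell ≃ Cell)
    (h : ∀ (a b : ℤ) (sw : Bool) (t : Cell), (a = 1 ∨ a = -1) → (b = 1 ∨ b = -1) →
      ∃ (a' b' : ℤ) (sw' : Bool) (t' : Cell), (a' = 1 ∨ a' = -1) ∧ (b' = 1 ∨ b' = -1) ∧
        ∀ c : Cell, e (t + signedPerm a b sw c) = t' + signedPerm a' b' sw' c) :
    ∀ A, IsCopy A → IsCopy (A.image e) := by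
  rintro A ⟨a, b, sw, t, ha, hb, rfl⟩
  obtain ⟨a', b', sw', t', ha', hb', h'⟩ := h a b sw t ha hb
  refine ⟨a', b', sw', t', ha', hb', ?_⟩
  rw [Finset.image_image]
  congr 1
  funext c
  exact h' c

/-- translation -/
def symTr (d : Cell) : Sym where
  e := Equiv.addRight d
  copy := Sym.ext_image _ (fun a b sw t ha hb => ⟨a, b, sw, t + d, ha, hb, fun c => by
    simp only [Equiv.coe_addRight]; abel⟩)

/-- `x ↦ 15 - x` -/
def symX : Sym where
  e := { toFun := fun c => (15 - c.1, c.2), invFun := fun c => (15 - c.1, c.2),
         left_inv := fun c => by simp, right_inv := fun c => by simp }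
  copy := Sym.ext_image _ (fun a b sw t ha hb => by
    refine ⟨-a, b, sw, (15 - t.1, t.2), by rcases ha with h | h <;> simp [h], hb, fun c => ?_⟩
    cases sw <;> simp only [signedPerm, Equiv.coe_fn_mk, Prod.fst_add, Prod.snd_add] <;>
      ext <;> simp <;> ring)

/-- `y ↦ 15 - y` -/
def symY : Sym where
  e := { toFun := fun c => (c.1, 15 - c.2), invFun := fun c => (c.1, 15 - c.2),
         left_inv := fun c => by simp, right_inv := fun c => by simp }
  copy := Sym.ext_image _ (fun a b sw t ha hb => by
    refine ⟨a, -b, sw, (t.1, 15 - t.2), ha, by rcases hb with h | h <;> simp [h], fun c => ?_⟩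
    cases sw <;> simp only [signedPerm, Equiv.coe_fn_mk, Prod.fst_add, Prod.snd_add] <;>
      ext <;> simp <;> ring)

/-- `(x, y) ↦ (y, x)` -/
def symT : Sym where
  e := { toFun := fun c => (c.2, c.1), invFun := fun c => (c.2, c.1),
         left_inv := fun c => by simp, right_inv := fun c => by simp }
  copy := Sym.ext_image _ (fun a b sw t ha hb => by
    refine ⟨b, a, !sw, (t.2, t.1), hb, ha, fun c => ?_⟩
    cases sw <;> simp [signedPerm])

/-- identity -/
def symId : Sym where
  e := Equiv.refl _
  copy := fun A h => by simpa using h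

/-- composition: first `T`, then `U` -/
def Sym.comp (T U : Sym) : Sym where
  e := T.e.trans U.e
  copy := fun A h => by
    have := U.copy _ (T.copy A h)
    rw [Finset.image_image] at this
    simpa using this

end Vale.Agent.P062
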