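import Vale.Agent.P062.Game

/-! From a won position to a strategy. -/

namespace Vale.Agent.P062

open Classical

/-- A good answer to `b`, if there is one. -/
noncomputable def next (n : ℕ) (M B : Finset Cell) (b : Cell) : Cell :=
  if h : ∃ m, m ∉ M ∧ m ∉ B ∧ m ≠ b ∧ WB n (insert m M) (insert b B) then h.choose else 0

/-- State (remaining moves, Maker's cells, Breaker's cells) after a list of Breaker moves. -/
noncomputable def st (N : ℕ) (m0 : Cell) : List Cell → ℕ × Finset Cell × Finset Cell
  | [] => (N, {m0}, ∅)
  | b :: l =>
    ((st N m0 l).1 - 1,
      insert (next ((st N m0 l).1 - 1) (st N m0 l).2.1 (st N m0 l).2.2 b) (st N m0 l).2.1,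
      insert b (st N m0 l).2.2)

/-- The strategy. -/
noncomputable def strat (N : ℕ) (m0 : Cell) : List Cell → Cell
  | [] => m0
  | b :: l => next ((st N m0 l).1 - 1) (st N m0 l).2.1 (st N m0 l).2.2 b

theorem makerCells_succ (σ : List Cell → Cell) (b : ℕ → Cell) (k : ℕ) :
    makerCells σ b (k + 1) = insert (makerMove σ b k) (makerCells σ b k) := by
  simp [makerCells, Finset.range_add_one, Finset.image_insert]

theorem breakerCells_succ (b : ℕ → Cell) (k : ℕ) :
    breakerCells b (k + 1) = insert (b k) (breakerCells b k) := by
  simp [breakerCells, Finset.range_add_one, Finset.image_insert]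

theorem st_history (N : ℕ) (m0 : Cell) (b : ℕ → Cell) (k : ℕ) :
    st N m0 (history b k) = (N - k, makerCells (strat N m0) b (k + 1), breakerCells b k) := by
  induction k with
  | zero =>
    simp [history, st, makerCells, breakerCells, makerMove, strat]
  | succ k ih =>
    rw [makerCells_succ _ _ (k + 1), breakerCells_succ]
    simp only [history, st, makerMove, strat]
    rw [ih]
    simp only [Prod.mk.injEq]
    exact ⟨by omega, trivial⟩

theorem strategy_of_WB {N : ℕ} {m0 : Cell} (h : WB N {m0} ∅) : MakerHasWinningStrategy := by
  refine ⟨strat N m0, fun b hb => ?_⟩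
  have key : ∀ n k, N - k = n → k ≤ N →
      WB n (makerCells (strat N m0) b (k + 1)) (breakerCells b k) →
      (∀ i < k + 1, MakerLegal (strat N m0) b i) →
      ∃ n : ℕ, (∀ k < n, MakerLegal (strat N m0) b k) ∧
        ∃ A, IsCopy A ∧ A ⊆ makerCells (strat N m0) b n := by
    intro n
    induction n with
    | zero => intro k _ _ hW hl; exact ⟨k + 1, hl, hW⟩
    | succ n ih =>
      intro k hk hkN hW hl
      rcases hW with hW | hW
      · exact ⟨k + 1, hl, hW⟩
      · have hbk := hb k
        have hex := hW (b k) hbk.1 hbk.2
        have hmv : makerMove (strat N m0) b (k + 1) =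
            next n (makerCells (strat N m0) b (k + 1)) (breakerCells b k) (b k) := by
          simp only [makerMove, history, strat]
          rw [st_history]
          simp only
          congr 1
          omega
        have hsp := hex.choose_spec
        have hn : next n (makerCells (strat N m0) b (k + 1)) (breakerCells b k) (b k)
            = hex.choose := by
          unfold next
          rw [dif_pos hex]
        rw [← hn, ← hmv] at hsp
        obtain ⟨h1, h2, h3, h4⟩ := hsp
        refine ih (k + 1) (by omega) (by omega) ?_ ?_
        · rw [makerCells_succ _ _ (k + 1), breakerCells_succ]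
          exact h4
        · intro i hi
          rcases Nat.lt_succ_iff_lt_or_eq.1 hi with h' | h'
          · exact hl i h'
          · subst h'
            refine ⟨h1, ?_⟩
            rw [breakerCells_succ, Finset.mem_insert, not_or]
            exact ⟨h3, h2⟩
  refine key N 0 (by omega) (by omega) ?_ ?_
  · have : makerCells (strat N m0) b (0 + 1) = {m0} := by
      simp [makerCells, makerMove, history, strat]
    rw [this]
    have : breakerCells b 0 = ∅ := by simp [breakerCells]
    rw [this]
    exact h
  · intro i hi
    have : i = 0 := by omega
    subst this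
    simp [MakerLegal, makerCells, breakerCells]

theorem strategy_of_fact {m0 : Cell} {Z : Set Cell} (h : FactS {m0} Z) :
    MakerHasWinningStrategy := by
  obtain ⟨n, hn⟩ := h
  exact strategy_of_WB (hn {m0} ∅ (by simp) (by simp) (by simp))

end Vale.Agent.P062
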