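import Vale.Agent.P062.Game
import Vale.Agent.P062.DefsD

/-! From a won position in the plane to strategies on all boards `ℤ^d`. -/

namespace Vale.Agent.P062

open Classical

/-- Maker owns a copy in `ℤ^d`. -/
def WonD (d : ℕ) (M : Finset (Fin d → ℤ)) : Prop := ∃ A, IsCopyD d A ∧ A ⊆ M

/-- Breaker to move in `ℤ^d`. -/
def WBD (d : ℕ) : ℕ → Finset (Fin d → ℤ) → Finset (Fin d → ℤ) → Prop
  | 0, M, _ => WonD d M
  | n + 1, M, B => WonD d M ∨ ∀ b, b ∉ M → b ∉ B →
      ∃ m, m ∉ M ∧ m ∉ B ∧ m ≠ b ∧ WBD d n (insert m M) (insert b B)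

theorem WonD.mono {d : ℕ} {M M' : Finset (Fin d → ℤ)} (h : M ⊆ M') (hw : WonD d M) : WonD d M' := by
  obtain ⟨A, hA, hAM⟩ := hw
  exact ⟨A, hA, hAM.trans h⟩

theorem WBD.of_won {d : ℕ} {M B : Finset (Fin d → ℤ)} (h : WonD d M) : ∀ n, WBD d n M B
  | 0 => h
  | _ + 1 => Or.inl h

theorem emb_injective {d : ℕ} (hd : 2 ≤ d) : Function.Injective (emb d) := by
  intro a b h
  have h0 := congrFun h ⟨0, by omega⟩
  have h1 := congrFun h ⟨1, by omega⟩
  simp [emb] at h0 h1
  exact Prod.ext h0 h1

theorem isCopyD_emb {d : ℕ} (hd : 2 ≤ d) {A : Finset Cell} (hA : IsCopy A) :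
    IsCopyD d (A.image (emb d)) := by
  obtain ⟨a, b, sw, t, ha, hb, rfl⟩ := hA
  have hsn : snaky = snakyCells := rfl
  cases sw with
  | false =>
    refine ⟨emb d t, fun i => if i.val = 0 then a else if i.val = 1 then b else 1,
      Equiv.refl _, ?_, ?_⟩
    · intro i
      dsimp only
      split_ifs
      · exact ha
      · exact hb
      · exact Or.inl rfl
    · rw [Finset.image_image, hsn]
      congr 1
      funext c i
      by_cases h0 : i.val = 0
      · simp [Function.comp, emb, signedPerm, h0]
      · by_cases h1 : i.val = 1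
        · simp [Function.comp, emb, signedPerm, h1]
        · simp [Function.comp, emb, h0, h1]
  | true =>
    refine ⟨emb d t, fun i => if i.val = 0 then a else if i.val = 1 then b else 1,
      Equiv.swap ⟨0, by omega⟩ ⟨1, by omega⟩, ?_, ?_⟩
    · intro i
      dsimp only
      split_ifs
      · exact ha
      · exact hb
      · exact Or.inl rfl
    · rw [Finset.image_image, hsn]
      congr 1
      funext c i
      by_cases h0 : i = ⟨0, by omega⟩
      · subst h0
        rw [Equiv.swap_apply_left]
        simp [Function.comp, emb, signedPerm]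
      · by_cases h1 : i = ⟨1, by omega⟩
        · subst h1
          rw [Equiv.swap_apply_right]
          simp [Function.comp, emb, signedPerm]
        · rw [Equiv.swap_apply_of_ne_of_ne h0 h1]
          have h0' : i.val ≠ 0 := fun h => h0 (Fin.ext h)
          have h1' : i.val ≠ 1 := fun h => h1 (Fin.ext h)
          simp [Function.comp, emb, h0', h1']

instance instInfiniteBoard {d : ℕ} [NeZero d] : Infinite (Fin d → ℤ) := by
  infer_instance

theorem WB.toD {d : ℕ} (hd : 2 ≤ d) {n : ℕ} : ∀ {M B : Finset Cell}, WB n M B →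
    ∀ M' B' : Finset (Fin d → ℤ), (∀ c ∈ M, emb d c ∈ M') → (∀ c, emb d c ∈ B' → c ∈ B) →
      (∀ c ∈ M', c ∉ B') → WBD d n M' B' := by
  have : NeZero d := ⟨by omega⟩
  have won : ∀ {M : Finset Cell} (M' : Finset (Fin d → ℤ)), (∀ c ∈ M, emb d c ∈ M') → Won M →
      WonD d M' := by
    rintro M M' hM ⟨A, hA, hAM⟩
    refine ⟨_, isCopyD_emb hd hA, ?_⟩
    intro v hv
    obtain ⟨c, hc, rfl⟩ := Finset.mem_image.1 hv
    exact hM c (hAM hc)
  induction n with
  | zero => intro M B h M' B' hM _ _; exact won M' hM h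
  | succ n ih =>
    intro M B h M' B' hM hB hMB
    rcases h with h | h
    · exact Or.inl (won M' hM h)
    refine Or.inr fun b hb hb' => ?_
    -- the imaginary Breaker move
    obtain ⟨c, hcM, hcB, hc⟩ : ∃ c : Cell, c ∉ M ∧ c ∉ B ∧ ∀ c', emb d c' = b → c' ∈ insert c B := by
      by_cases hex : ∃ c : Cell, emb d c = b ∧ c ∉ B
      · obtain ⟨c, hcb, hcB⟩ := hex
        refine ⟨c, fun hcM => hb (hcb ▸ hM c hcM), hcB, fun c' hc' => ?_⟩
        rw [emb_injective hd (hc'.trans hcb.symm)]
        exact Finset.mem_insert_self _ _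
      · push Not at hex
        obtain ⟨c, hc⟩ := Infinite.exists_notMem_finset (M ∪ B)
        simp only [Finset.mem_union, not_or] at hc
        exact ⟨c, hc.1, hc.2, fun c' hc' => Finset.mem_insert_of_mem (hex c' hc')⟩
    obtain ⟨m, h1, h2, h3, h4⟩ := h c hcM hcB
    have hmb : emb d m ≠ b := by
      intro h
      rcases Finset.mem_insert.1 (hc m h) with h' | h'
      · exact h3 h'
      · exact h2 h'
    have hmB' : emb d m ∉ B' := fun h => h2 (hB m h)
    obtain ⟨w, hw1, hw2, hw3, hw4⟩ : ∃ w, w ∉ M' ∧ w ∉ B' ∧ w ≠ b ∧ emb d m ∈ insert w M' := by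
      by_cases hmM : emb d m ∈ M'
      · obtain ⟨w, hw⟩ := Infinite.exists_notMem_finset (M' ∪ B' ∪ {b})
        simp only [Finset.mem_union, Finset.mem_singleton, not_or] at hw
        exact ⟨w, hw.1.1, hw.1.2, hw.2, Finset.mem_insert_of_mem hmM⟩
      · exact ⟨emb d m, hmM, hmB', hmb, Finset.mem_insert_self _ _⟩
    refine ⟨w, hw1, hw2, hw3, ih h4 _ _ ?_ ?_ ?_⟩
    · intro c' hc'
      rcases Finset.mem_insert.1 hc' with h' | h'
      · rw [h']; exact hw4
      · exact Finset.mem_insert_of_mem (hM c' h')
    · intro c' hc'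
      rcases Finset.mem_insert.1 hc' with h' | h'
      · exact hc c' h'
      · exact Finset.mem_insert_of_mem (hB c' h')
    · intro v hv hvB
      rcases Finset.mem_insert.1 hv with h' | h'
      · rcases Finset.mem_insert.1 hvB with h'' | h''
        · exact hw3 (h' ▸ h'')
        · exact hw2 (h' ▸ h'')
      · rcases Finset.mem_insert.1 hvB with h'' | h''
        · exact hb (h'' ▸ h')
        · exact hMB v h' h''

section strategy
variable {d : ℕ}

/-- cells at even positions of a list -/
def evens : List (Fin d → ℤ) → Finset (Fin d → ℤ)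
  | [] => ∅
  | [a] => {a}
  | a :: _ :: l => insert a (evens l)

/-- Maker's cells after the first `n` Maker moves -/
noncomputable def mk (x : ℕ → Fin d → ℤ) (n : ℕ) : Finset (Fin d → ℤ) :=
  (Finset.range n).image (fun k => x (2 * k))

/-- Breaker's cells after the first `n` Breaker moves -/
noncomputable def bk (x : ℕ → Fin d → ℤ) (n : ℕ) : Finset (Fin d → ℤ) :=
  (Finset.range n).image (fun k => x (2 * k + 1))

/-- cell number `j` of a list -/
def nth (l : List (Fin d → ℤ)) (j : ℕ) : Fin d → ℤ := l.getD j 0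

/-- The good moves at a list of earlier moves of length `2k`. -/
def Good (N : ℕ) (l : List (Fin d → ℤ)) (m : Fin d → ℤ) : Prop :=
  m ∉ l ∧ WBD d (N - l.length / 2) (insert m (mk (nth l) (l.length / 2)))
    (bk (nth l) (l.length / 2))

/-- The strategy. -/
noncomputable def stratD [NeZero d] (N : ℕ) (l : List (Fin d → ℤ)) : Fin d → ℤ :=
  if h : ∃ m, Good N l m then h.choose
  else (Infinite.exists_notMem_finset l.toFinset).choose

theorem stratD_notMem [NeZero d] (N : ℕ) (l : List (Fin d → ℤ)) : stratD N l ∉ l := by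
  unfold stratD
  split_ifs with h
  · exact h.choose_spec.1
  · have := (Infinite.exists_notMem_finset l.toFinset).choose_spec
    simpa using this

theorem stratD_good [NeZero d] {N : ℕ} {l : List (Fin d → ℤ)} (h : ∃ m, Good N l m) :
    Good N l (stratD N l) := by
  unfold stratD
  rw [dif_pos h]
  exact h.choose_spec

theorem nth_map (x : ℕ → Fin d → ℤ) {n j : ℕ} (h : j < n) :
    nth ((List.range n).map x) j = x j := by
  unfold nth
  rw [List.getD_eq_getElem _ _ (by simpa using h)]
  simp

theorem mk_nth (x : ℕ → Fin d → ℤ) (k : ℕ) :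
    mk (nth ((List.range (2 * k)).map x)) k = mk x k := by
  unfold mk
  apply Finset.image_congr
  intro j hj
  have : j < k := by simpa using hj
  exact nth_map x (by omega)

theorem bk_nth (x : ℕ → Fin d → ℤ) (k : ℕ) :
    bk (nth ((List.range (2 * k)).map x)) k = bk x k := by
  unfold bk
  apply Finset.image_congr
  intro j hj
  have : j < k := by simpa using hj
  exact nth_map x (by omega)

theorem good_iff (N : ℕ) (x : ℕ → Fin d → ℤ) (k : ℕ) (m : Fin d → ℤ) :
    Good N ((List.range (2 * k)).map x) m ↔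
      (∀ j < 2 * k, x j ≠ m) ∧ WBD d (N - k) (insert m (mk x k)) (bk x k) := by
  unfold Good
  have hl : ((List.range (2 * k)).map x).length / 2 = k := by simp
  rw [hl, mk_nth, bk_nth]
  simp only [List.mem_map, List.mem_range, not_exists, not_and]

theorem mk_succ (x : ℕ → Fin d → ℤ) (k : ℕ) : mk x (k + 1) = insert (x (2 * k)) (mk x k) := by
  simp [mk, Finset.range_add_one, Finset.image_insert]

theorem bk_succ (x : ℕ → Fin d → ℤ) (k : ℕ) :
    bk x (k + 1) = insert (x (2 * k + 1)) (bk x k) := by
  simp [bk, Finset.range_add_one, Finset.image_insert]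

theorem mem_mk {x : ℕ → Fin d → ℤ} {k : ℕ} {v : Fin d → ℤ} :
    v ∈ mk x k ↔ ∃ j < k, x (2 * j) = v := by
  simp [mk]

theorem mem_bk {x : ℕ → Fin d → ℤ} {k : ℕ} {v : Fin d → ℤ} :
    v ∈ bk x k ↔ ∃ j < k, x (2 * j + 1) = v := by
  simp [bk]

theorem makerWinsWithin_of_WBD (hd : 2 ≤ d) {N : ℕ} {m0 : Fin d → ℤ} (h : WBD d N {m0} ∅) :
    MakerWinsWithin d (N + 1) := by
  have : NeZero d := ⟨by omega⟩
  refine ⟨stratD N, fun x hx => ⟨fun k j hj hjk => ?_, fun hleg => ?_⟩⟩
  · have h1 := stratD_notMem N ((List.range (2 * k)).map x)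
    rw [← hx k] at h1
    apply h1
    rw [← hjk]
    exact List.mem_map.2 ⟨j, List.mem_range.2 hj, rfl⟩
  · -- invariant
    have inv : ∀ k ≤ N, WBD d (N - k) (mk x (k + 1)) (bk x k) := by
      intro k
      induction k with
      | zero =>
        intro _
        have hex : ∃ m, Good N ((List.range (2 * 0)).map x) m := by
          refine ⟨m0, (good_iff N x 0 m0).2 ⟨by simp, ?_⟩⟩
          simpa [mk, bk] using h
        have hg := stratD_good hex
        rw [← hx 0, good_iff] at hg
        rw [mk_succ]
        exact hg.2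
      | succ k ih =>
        intro hk
        have hW := ih (by omega)
        have hbl : LegalMove x (2 * k + 1) := hleg k (by omega)
        have hex : ∃ m, Good N ((List.range (2 * (k + 1))).map x) m := by
          obtain ⟨n, hn⟩ : ∃ n, N - k = n + 1 := ⟨N - k - 1, by omega⟩
          have hn' : N - (k + 1) = n := by omega
          rw [hn] at hW
          rcases hW with hW | hW
          · obtain ⟨m, hm⟩ := Infinite.exists_notMem_finset
              ((Finset.range (2 * (k + 1))).image x)
            refine ⟨m, (good_iff N x (k + 1) m).2 ⟨?_, WBD.of_won (hW.mono ?_) _⟩⟩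
            · intro j hj hjm
              exact hm (Finset.mem_image.2 ⟨j, Finset.mem_range.2 hj, hjm⟩)
            · exact Finset.subset_insert _ _
          · obtain ⟨m, h1, h2, h3, h4⟩ := hW (x (2 * k + 1)) (by
              rw [mem_mk]
              rintro ⟨j, hj, hj'⟩
              exact hbl (2 * j) (by omega) hj') (by
              rw [mem_bk]
              rintro ⟨j, hj, hj'⟩
              exact hbl (2 * j + 1) (by omega) hj')
            refine ⟨m, (good_iff N x (k + 1) m).2 ⟨?_, ?_⟩⟩
            · intro j hj hjm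
              rcases Nat.even_or_odd' j with ⟨i, hi | hi⟩
              · subst hi
                exact h1 (mem_mk.2 ⟨i, by omega, hjm⟩)
              · subst hi
                by_cases hik : i = k
                · subst hik; exact h3 hjm.symm
                · exact h2 (mem_bk.2 ⟨i, by omega, hjm⟩)
            · rw [hn', bk_succ]
              exact h4
        have hg := stratD_good hex
        rw [← hx (k + 1), good_iff] at hg
        rw [mk_succ]
        exact hg.2
    have hN := inv N le_rfl
    rw [Nat.sub_self] at hN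
    obtain ⟨A, hA, hAM⟩ := hN
    exact ⟨A, hA, fun a ha => mem_mk.1 (hAM ha)⟩

/-- the play in which Maker uses `σ` and Breaker uses `τ` -/
noncomputable def playList (σ τ : List (Fin d → ℤ) → (Fin d → ℤ)) : ℕ → List (Fin d → ℤ)
  | 0 => []
  | k + 1 => playList σ τ k ++
      [if k % 2 = 0 then σ (playList σ τ k) else τ (playList σ τ k)]

theorem playList_eq (σ τ : List (Fin d → ℤ) → (Fin d → ℤ)) (k : ℕ) :
    playList σ τ k = (List.range k).map (fun j =>
      if j % 2 = 0 then σ (playList σ τ j) else τ (playList σ τ j)) := by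
  induction k with
  | zero => rfl
  | succ k ih =>
    rw [List.range_succ, List.map_append, ← ih]
    rfl

theorem not_breakerPrevents {N : ℕ} (h : MakerWinsWithin d N) : ¬ BreakerPrevents d := by
  rintro ⟨τ, hτ⟩
  obtain ⟨σ, hσ⟩ := h
  let x : ℕ → Fin d → ℤ := fun j =>
    if j % 2 = 0 then σ (playList σ τ j) else τ (playList σ τ j)
  have hx : ∀ k, (List.range k).map x = playList σ τ k := fun k => (playList_eq σ τ k).symm
  have h1 : ∀ k, x (2 * k) = σ ((List.range (2 * k)).map x) := by
    intro k
    rw [hx]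
    simp [x]
  have h2 : ∀ k, x (2 * k + 1) = τ ((List.range (2 * k + 1)).map x) := by
    intro k
    rw [hx]
    have : (2 * k + 1) % 2 ≠ 0 := by omega
    simp only [x]
    rw [if_neg this]
  obtain ⟨h3, h4⟩ := hσ x h1
  obtain ⟨h5, h6⟩ := hτ x h2 h3
  exact h6 N (h4 (fun k _ => h5 k))

end strategy

end Vale.Agent.P062
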