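import Vale.Agent.P062.Final
import Vale.Agent.P062.Strong

/-! Snaky is a Maker win on all boards `ℤ^d`, `d ≥ 2`, within one bounded number of moves. -/

namespace Vale.Agent.P062

theorem exists_WB : ∃ (N : ℕ) (m0 : Cell), WB N {m0} ∅ := by
  have h1 := tree_sound top_ok _ _ _ _ (Nat.lt_succ_self _) (top.get_mem 9550)
  have hr : (top.get 9550).2.1 = 2 ^ 231 := by decide +kernel
  rw [hr] at h1
  obtain ⟨_, h2⟩ := h1
  have : S (2 ^ 231) = {pt 231} := by
    ext x
    constructor
    · rintro ⟨i, hi, rfl⟩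
      rw [Nat.testBit_two_pow] at hi
      have : 231 = i := by simpa using hi
      rw [this]; rfl
    · rintro rfl
      exact ⟨231, by rw [Nat.testBit_two_pow]; simp, rfl⟩
  rw [this] at h2
  obtain ⟨n, hn⟩ := h2
  exact ⟨n, pt 231, hn {pt 231} ∅ (by simp) (by simp) (by simp)⟩

theorem maker_wins_all : ∃ N : ℕ, ∀ d : ℕ, 2 ≤ d → MakerWinsWithin d N ∧ ¬ BreakerPrevents d := by
  obtain ⟨N, m0, h⟩ := exists_WB
  refine ⟨N + 1, fun d hd => ?_⟩
  have h1 : WBD d N {emb d m0} ∅ := by
    refine h.toD hd _ _ ?_ ?_ ?_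
    · intro c hc
      rw [Finset.mem_singleton] at hc
      rw [hc]; exact Finset.mem_singleton_self _
    · intro c hc
      simp at hc
    · intro c _ hc
      simp at hc
  exact ⟨makerWinsWithin_of_WBD hd h1, not_breakerPrevents (makerWinsWithin_of_WBD hd h1)⟩

end Vale.Agent.P062
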